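import Vale.Agent.P192.H663.CMDefs

/-!
# P192, coarsely piecewise monotone groups: row BAD
-/

namespace Vale.Agent.P192.H226

open Set CM

variable {K : Type} [LinearOrder K]

theorem up (A : Set K) (j : ℕ) (h : ∀ x ∈ A, (A ∩ Iic x).encard ≤ j) : A.encard ≤ j := by
  by_contra hc
  rw [not_le] at hc
  have h1 : ((j : ℕ∞) + 1) ≤ A.encard := Order.add_one_le_of_lt hc
  obtain ⟨t, ht, hte⟩ := Set.exists_subset_encard_eq h1
  have hte' : t.encard = ((j + 1 : ℕ) : ℕ∞) := by rw [hte]; push_cast; rfl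
  have hfin : t.Finite := Set.finite_of_encard_eq_coe hte'
  have hne : t.Nonempty := by
    rw [Set.nonempty_iff_ne_empty]
    rintro rfl
    rw [Set.encard_empty] at hte'
    have : (0 : ℕ) = j + 1 := by exact_mod_cast hte'
    omega
  obtain ⟨x, hx, hmax⟩ := Set.exists_max_image t id hfin hne
  have h2 : t.encard ≤ (A ∩ Iic x).encard := Set.encard_le_encard fun z hz => ⟨ht hz, hmax z hz⟩
  have h3 := h2.trans (h x (ht hx))
  rw [hte'] at h3
  have : j + 1 ≤ j := by exact_mod_cast h3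
  omega

theorem down (A : Set K) (j : ℕ) (h : ∀ x ∈ A, (A ∩ Ici x).encard ≤ j) : A.encard ≤ j := by
  by_contra hc
  rw [not_le] at hc
  have h1 : ((j : ℕ∞) + 1) ≤ A.encard := Order.add_one_le_of_lt hc
  obtain ⟨t, ht, hte⟩ := Set.exists_subset_encard_eq h1
  have hte' : t.encard = ((j + 1 : ℕ) : ℕ∞) := by rw [hte]; push_cast; rfl
  have hfin : t.Finite := Set.finite_of_encard_eq_coe hte'
  have hne : t.Nonempty := by
    rw [Set.nonempty_iff_ne_empty]
    rintro rfl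
    rw [Set.encard_empty] at hte'
    have : (0 : ℕ) = j + 1 := by exact_mod_cast hte'
    omega
  obtain ⟨x, hx, hmin⟩ := Set.exists_min_image t id hfin hne
  have h2 : t.encard ≤ (A ∩ Ici x).encard := Set.encard_le_encard fun z hz => ⟨ht hz, hmin z hz⟩
  have h3 := h2.trans (h x (ht hx))
  rw [hte'] at h3
  have : j + 1 ≤ j := by exact_mod_cast h3
  omega

theorem near_up (y : K) (N : ℕ) : {z | y ≤ z ∧ (Icc y z).encard ≤ N}.encard ≤ N :=
  up _ _ fun x hx => le_trans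
    (Set.encard_le_encard (t := Icc y x) fun _ hz => ⟨hz.1.1, hz.2⟩) hx.2

theorem near_down (y : K) (N : ℕ) : {z | z ≤ y ∧ (Icc z y).encard ≤ N}.encard ≤ N :=
  down _ _ fun x hx => le_trans
    (Set.encard_le_encard (t := Icc x y) fun _ hz => ⟨hz.2, hz.1.1⟩) hx.2

/-- the first and the last `j` elements of `S` -/
def Ends (S : Set K) (j : ℕ) : Set K :=
  {x | x ∈ S ∧ (S ∩ Ici x).encard ≤ j} ∪ {x | x ∈ S ∧ (S ∩ Iic x).encard ≤ j}

theorem ends_finite (S : Set K) (j : ℕ) : (Ends S j).Finite := by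
  refine Set.Finite.union ?_ ?_
  · have h : {x | x ∈ S ∧ (S ∩ Ici x).encard ≤ j}.encard ≤ j :=
      down _ _ fun x hx => le_trans
        (Set.encard_le_encard (t := S ∩ Ici x) fun z hz => ⟨hz.1.1, hz.2⟩) hx.2
    exact Set.finite_of_encard_le_coe h
  · have h : {x | x ∈ S ∧ (S ∩ Iic x).encard ≤ j}.encard ≤ j :=
      up _ _ fun x hx => le_trans
        (Set.encard_le_encard (t := S ∩ Iic x) fun z hz => ⟨hz.1.1, hz.2⟩) hx.2
    exact Set.finite_of_encard_le_coe h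

theorem claim_le (h : Equiv.Perm K) (D : Set K) (N k : ℕ) (hD : D.OrdConnected)
    (hm : CMono N h D ∨ CAnti N h D) (a b : K) (ha : a ∈ D) (hb : b ∈ D)
    (hk : (uIcc (h a) (h b)).encard ≤ k) : (Icc a b).encard ≤ ((k + N + N : ℕ) : ℕ∞) := by
  have hsub : Icc a b ⊆ ({z | z ∈ Icc a b ∧ h z ∈ uIcc (h a) (h b)} ∪
      {z | a ≤ z ∧ (Icc a z).encard ≤ N}) ∪ {z | z ≤ b ∧ (Icc z b).encard ≤ N} := by
    intro z hz
    by_cases h1 : (Icc a z).encard ≤ N
    · exact Or.inl (Or.inr ⟨hz.1, h1⟩)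
    by_cases h2 : (Icc z b).encard ≤ N
    · exact Or.inr ⟨hz.2, h2⟩
    refine Or.inl (Or.inl ⟨hz, ?_⟩)
    have hzD : z ∈ D := hD.out ha hb hz
    rcases hz.1.lt_or_eq with haz | haz
    swap
    · rw [← haz]; exact Set.left_mem_uIcc
    rcases hz.2.lt_or_eq with hzb | hzb
    swap
    · rw [hzb]; exact Set.right_mem_uIcc
    rcases hm with hm | hm
    · have e1 := (hm a ha z hzD haz).resolve_left h1
      have e2 := (hm z hzD b hb hzb).resolve_left h2
      rw [Set.mem_uIcc]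
      exact Or.inl ⟨e1.le, e2.le⟩
    · have e1 := (hm a ha z hzD haz).resolve_left h1
      have e2 := (hm z hzD b hb hzb).resolve_left h2
      rw [Set.mem_uIcc]
      exact Or.inr ⟨e2.le, e1.le⟩
  have h1 : {z | z ∈ Icc a b ∧ h z ∈ uIcc (h a) (h b)}.encard ≤ k := by
    rw [← h.injective.encard_image]
    refine le_trans (Set.encard_le_encard ?_) hk
    rintro _ ⟨z, hz, rfl⟩
    exact hz.2
  calc (Icc a b).encard ≤ _ := Set.encard_le_encard hsub
    _ ≤ _ := Set.encard_union_le _ _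
    _ ≤ (k + N) + N := add_le_add ((Set.encard_union_le _ _).trans
        (add_le_add h1 (near_up a N))) (near_down b N)
    _ = ((k + N + N : ℕ) : ℕ∞) := by push_cast; rfl

theorem claim (h : Equiv.Perm K) (D : Set K) (N k : ℕ) (hD : D.OrdConnected)
    (hm : CMono N h D ∨ CAnti N h D) (a b : K) (ha : a ∈ D) (hb : b ∈ D)
    (hk : (uIcc (h a) (h b)).encard ≤ k) : (uIcc a b).encard ≤ ((k + N + N : ℕ) : ℕ∞) := by
  rcases le_total a b with hab | hab
  · rw [Set.uIcc_of_le hab]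
    exact claim_le h D N k hD hm a b ha hb hk
  · rw [Set.uIcc_of_ge hab]
    exact claim_le h D N k hD hm b a hb ha (by rwa [Set.uIcc_comm])

theorem end_one (C : Set K) (hC : C.OrdConnected) (k : ℕ) (x y : K) (hx : x ∈ C) (hy : y ∉ C)
    (hk : (uIcc x y).encard ≤ k) : x ∈ Ends C k := by
  rcases le_total x y with hxy | hxy
  · refine Or.inl ⟨hx, le_trans (Set.encard_le_encard ?_) hk⟩
    rintro z ⟨hz, hxz⟩
    rw [Set.uIcc_of_le hxy]
    refine ⟨hxz, ?_⟩
    by_contra hc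
    exact hy (hC.out hx hz ⟨hxy, (not_le.1 hc).le⟩)
  · refine Or.inr ⟨hx, le_trans (Set.encard_le_encard ?_) hk⟩
    rintro z ⟨hz, hxz⟩
    rw [Set.uIcc_of_ge hxy]
    refine ⟨?_, hxz⟩
    by_contra hc
    exact hy (hC.out hz hx ⟨(not_le.1 hc).le, hxy⟩)

/-- few elements of `E` above `y` -/
theorem end_up (E : Set K) (k N : ℕ) (x y : K) (hx : x ∈ E)
    (hE : ∀ z ∈ E, y < z → (Icc y z).encard ≤ N) (hk : (uIcc x y).encard ≤ k) :
    x ∈ Ends E (k + N) := by
  refine Or.inl ⟨hx, ?_⟩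
  have hsub : E ∩ Ici x ⊆ uIcc x y ∪ {z | y ≤ z ∧ (Icc y z).encard ≤ N} := by
    rintro z ⟨hz, hxz⟩
    rcases le_or_gt z y with h | h
    · exact Or.inl (Set.mem_uIcc.2 (Or.inl ⟨hxz, h⟩))
    · exact Or.inr ⟨h.le, hE z hz h⟩
  refine (Set.encard_le_encard hsub).trans ((Set.encard_union_le _ _).trans ?_)
  rw [Nat.cast_add]
  exact add_le_add hk (near_up y N)

theorem end_down (E : Set K) (k N : ℕ) (x y : K) (hx : x ∈ E)
    (hE : ∀ z ∈ E, z < y → (Icc z y).encard ≤ N) (hk : (uIcc x y).encard ≤ k) :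
    x ∈ Ends E (k + N) := by
  refine Or.inr ⟨hx, ?_⟩
  have hsub : E ∩ Iic x ⊆ uIcc x y ∪ {z | z ≤ y ∧ (Icc z y).encard ≤ N} := by
    rintro z ⟨hz, hxz⟩
    rcases le_or_gt y z with h | h
    · exact Or.inl (Set.mem_uIcc.2 (Or.inr ⟨h, hxz⟩))
    · exact Or.inr ⟨h.le, hE z hz h⟩
  refine (Set.encard_le_encard hsub).trans ((Set.encard_union_le _ _).trans ?_)
  rw [Nat.cast_add]
  exact add_le_add hk (near_down y N)

theorem end_two (g : Equiv.Perm K) (C D : Set K) (hD : D.OrdConnected) (k N : ℕ)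
    (hm : CMono N g C ∨ CAnti N g C) (x y : K) (hx : x ∈ C) (hy : y ∈ C) (hgx : g x ∈ D)
    (hgy : g y ∉ D) (hk : (uIcc x y).encard ≤ k) : x ∈ Ends (C ∩ g ⁻¹' D) (k + N) := by
  rcases le_total (g x) (g y) with hxy | hxy
  · have hlt : ∀ z ∈ C ∩ g ⁻¹' D, g z < g y := by
      intro z hz
      by_contra hc
      exact hgy (hD.out hgx hz.2 ⟨hxy, not_lt.1 hc⟩)
    rcases hm with hm | hm
    · exact end_up _ k N x y ⟨hx, hgx⟩ (fun z hz hyz =>
        (hm y hy z hz.1 hyz).resolve_right (hlt z hz).not_gt) hk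
    · exact end_down _ k N x y ⟨hx, hgx⟩ (fun z hz hyz =>
        (hm z hz.1 y hy hyz).resolve_right (hlt z hz).not_gt) hk
  · have hlt : ∀ z ∈ C ∩ g ⁻¹' D, g y < g z := by
      intro z hz
      by_contra hc
      exact hgy (hD.out hz.2 hgx ⟨not_lt.1 hc, hxy⟩)
    rcases hm with hm | hm
    · exact end_down _ k N x y ⟨hx, hgx⟩ (fun z hz hyz =>
        (hm z hz.1 y hy hyz).resolve_right (hlt z hz).not_gt) hk
    · exact end_up _ k N x y ⟨hx, hgx⟩ (fun z hz hyz =>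
        (hm y hy z hz.1 hyz).resolve_right (hlt z hz).not_gt) hk

/-- row BAD -/
theorem bad : CM.BAD_statement := by
  intro K _ g hg hg' k
  obtain ⟨N, P, hP, hcov, hPc⟩ := hg
  obtain ⟨N', P', hP', hcov', hPc'⟩ := hg'
  refine ⟨k + N' + N', ?_⟩
  have hF : ((⋃ C ∈ P, Ends C k) ∪ ⋃ C ∈ P, ⋃ D ∈ P', Ends (C ∩ g ⁻¹' D) (k + N)).Finite := by
    refine Set.Finite.union ?_ ?_
    · exact hP.biUnion fun C _ => ends_finite C k
    · exact hP.biUnion fun C _ => hP'.biUnion fun D _ => ends_finite _ _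
  refine hF.subset ?_
  rintro x ⟨y, hxy, hno⟩
  by_contra hx
  apply hno
  obtain ⟨C, hC, hxC⟩ : x ∈ ⋃₀ P := by rw [hcov]; exact Set.mem_univ x
  obtain ⟨D, hD, hxD⟩ : g x ∈ ⋃₀ P' := by rw [hcov']; exact Set.mem_univ _
  have hyC : y ∈ C := by
    by_contra hy
    exact hx (Or.inl (Set.mem_biUnion hC (end_one C (hPc C hC).1 k x y hxC hy hxy)))
  have hyD : g y ∈ D := by
    by_contra hy
    exact hx (Or.inr (Set.mem_biUnion hC (Set.mem_biUnion hD
      (end_two g C D (hPc' D hD).1 k N (hPc C hC).2 x y hxC hyC hxD hy hxy))))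
  refine claim g⁻¹ D N' k (hPc' D hD).1 (hPc' D hD).2 (g x) (g y) hxD hyD ?_
  simpa using hxy

end Vale.Agent.P192.H226

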